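import Vale.Agent.P224.R2.H590.ElKB

/-!
The pointwise inequality for the integrand of the mean normal identity.
-/

namespace Vale.Agent.P224.R2.H586

open MeasureTheory Matrix Finset Filter
open Vale.Agent.P224.R2.H728 Vale.Agent.P224.R2.H579 Vale.Agent.P224.R2.H807 Vale.Agent.P224.R2.H590

set_option linter.unusedSectionVars false

section

variable {ι : Type*} [Fintype ι]

/-- Cauchy inequality with absolute values -/
lemma cs_abs (f g : ι → ℝ) : ∑ a, |f a * g a| ≤ √(∑ a, f a ^ 2) * √(∑ a, g a ^ 2) := by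
  have h := Real.sum_mul_le_sqrt_mul_sqrt Finset.univ (fun a => |f a|) (fun a => |g a|)
  simpa only [sq_abs, ← abs_mul] using h

/-- the splitting of one component -/
lemma G8_split (m : ℝ) (hm : 0 < m) (j u n : ι → ℝ) (a : ι) :
    G8 m j u n a = -(n a - j a * u a) * (∑ b, (n b - j b * u b) ^ 2)
      + ((m + 2) / 2 + j a ^ 2) * u a
        * (∑ b, j b / ((m + 2) / 2 + j b ^ 2) * (n b - j b * u b) ^ 2)
      + 1 / 2 * (j a * u a) * (∑ b, (n b - j b * u b) ^ 2)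
      + 1 / 2 * (j a * u a) * (∑ b, (j a ^ 2 - j b ^ 2) / ((m + 2) / 2 + j b ^ 2)
        * (n b - j b * u b) ^ 2)
      - 3 * (n a - j a * u a) * (∑ b, (n b - j b * u b) * (j b * u b))
      - (n a - j a * u a) * (∑ b, (j a - j b) * (j a + 2 * j b) / ((m + 2) / 2 + j b ^ 2)
        * ((n b - j b * u b) * (j b * u b))) := by
  unfold G8
  have e1 : u a * (∑ b, ((m + 2) / 2 + j a ^ 2) * (j b + j a / 2) / ((m + 2) / 2 + j b ^ 2)
        * (n b - j b * u b) ^ 2)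
      = ((m + 2) / 2 + j a ^ 2) * u a
        * (∑ b, j b / ((m + 2) / 2 + j b ^ 2) * (n b - j b * u b) ^ 2)
      + 1 / 2 * (j a * u a) * (∑ b, (n b - j b * u b) ^ 2)
      + 1 / 2 * (j a * u a) * (∑ b, (j a ^ 2 - j b ^ 2) / ((m + 2) / 2 + j b ^ 2)
        * (n b - j b * u b) ^ 2) := by
    simp only [Finset.mul_sum, ← Finset.sum_add_distrib]
    refine Finset.sum_congr rfl fun b _ => ?_
    have h0 : (m + 2) / 2 + j b ^ 2 ≠ 0 := by positivity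
    field_simp
    ring
  have e2 : ∑ b, j b * (3 * ((m + 2) / 2) + j a ^ 2 + j a * j b + j b ^ 2)
        / ((m + 2) / 2 + j b ^ 2) * ((n b - j b * u b) * u b)
      = 3 * (∑ b, (n b - j b * u b) * (j b * u b))
        + ∑ b, (j a - j b) * (j a + 2 * j b) / ((m + 2) / 2 + j b ^ 2)
        * ((n b - j b * u b) * (j b * u b)) := by
    simp only [Finset.mul_sum, ← Finset.sum_add_distrib]
    refine Finset.sum_congr rfl fun b _ => ?_
    have h0 : (m + 2) / 2 + j b ^ 2 ≠ 0 := by positivity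
    field_simp
    ring
  rw [e1, e2]
  ring

/-- the main part: `|s N + q z| = r s` -/
lemma main_part (v z y : ι → ℝ) (hv : ∑ a, v a ^ 2 = 1) (hn : ∑ a, (y a + z a) ^ 2 = 1) :
    (∑ a, z a ^ 2) * (∑ a, v a * (y a + z a)) + ((∑ a, y a ^ 2) - 1) * (∑ a, v a * z a)
      ≤ √(∑ a, y a ^ 2) * (∑ a, z a ^ 2) := by
  set S := ∑ a, z a ^ 2 with hS
  set R := ∑ a, y a ^ 2 with hR
  set P := ∑ a, y a * z a with hP
  have hS0 : 0 ≤ S := Finset.sum_nonneg fun a _ => sq_nonneg _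
  have hR0 : 0 ≤ R := Finset.sum_nonneg fun a _ => sq_nonneg _
  have h1 : R + 2 * P + S = 1 := by
    rw [← hn, hS, hR, hP, Finset.mul_sum, ← Finset.sum_add_distrib, ← Finset.sum_add_distrib]
    exact Finset.sum_congr rfl fun a _ => by ring
  have h2 := Real.sum_mul_le_sqrt_mul_sqrt Finset.univ v (fun a => S * (y a + z a) + (R - 1) * z a)
  rw [hv, Real.sqrt_one, one_mul] at h2
  have h3 : ∑ a, (S * (y a + z a) + (R - 1) * z a) ^ 2 = (√R * S) ^ 2 := by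
    have e0 : ∀ a, (S * (y a + z a) + (R - 1) * z a) ^ 2
        = S ^ 2 * y a ^ 2 + 2 * S * (S + R - 1) * (y a * z a) + (S + R - 1) ^ 2 * z a ^ 2 :=
      fun a => by ring
    have e : ∑ a, (S * (y a + z a) + (R - 1) * z a) ^ 2
        = S ^ 2 * R + 2 * S * (S + R - 1) * P + (S + R - 1) ^ 2 * S := by
      simp only [e0, Finset.sum_add_distrib, ← Finset.mul_sum]
      rfl
    rw [e, mul_pow, Real.sq_sqrt hR0]
    have hP' : P = (1 - R - S) / 2 := by linarith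
    rw [hP']
    ring
  rw [h3, Real.sqrt_sq (by positivity)] at h2
  refine le_trans (le_of_eq ?_) h2
  rw [Finset.mul_sum, Finset.mul_sum, ← Finset.sum_add_distrib]
  exact Finset.sum_congr rfl fun a _ => by ring

/-- a weighted sum of squares -/
lemma wsum_le {c z : ι → ℝ} {κ : ℝ} (hc : ∀ b, |c b| ≤ κ) :
    |∑ b, c b * z b ^ 2| ≤ κ * ∑ b, z b ^ 2 := by
  refine (Finset.abs_sum_le_sum_abs _ _).trans ?_
  rw [Finset.mul_sum]
  refine Finset.sum_le_sum fun b _ => ?_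
  rw [abs_mul, abs_of_nonneg (sq_nonneg (z b))]
  exact mul_le_mul_of_nonneg_right (hc b) (sq_nonneg _)

/-- a weighted sum of products -/
lemma wprod_le {c z y : ι → ℝ} {κ : ℝ} (hκ : 0 ≤ κ) (hc : ∀ b, |c b| ≤ κ) :
    |∑ b, c b * (z b * y b)| ≤ κ * (√(∑ b, z b ^ 2) * √(∑ b, y b ^ 2)) := by
  refine (Finset.abs_sum_le_sum_abs _ _).trans ?_
  refine le_trans ?_ (mul_le_mul_of_nonneg_left (cs_abs z y) hκ)
  rw [Finset.mul_sum]
  refine Finset.sum_le_sum fun b _ => ?_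
  rw [abs_mul]
  exact mul_le_mul_of_nonneg_right (hc b) (abs_nonneg _)

/-- the coefficient of the linear term is increasing -/
lemma lin_coef {H ρ t : ℝ} (hH : 0 < H) (hρ : 0 ≤ ρ) (hρH : ρ ^ 2 ≤ H) (ht : |t| ≤ ρ) :
    |t / (H + t ^ 2)| ≤ ρ / (H + ρ ^ 2) := by
  have h0 : 0 < H + t ^ 2 := by positivity
  have h1 : 0 < H + ρ ^ 2 := by positivity
  rw [abs_div, abs_of_pos h0, div_le_div_iff₀ h0 h1]
  have e : t ^ 2 = |t| ^ 2 := (sq_abs t).symm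
  rw [e]
  have h2 : 0 ≤ |t| := abs_nonneg t
  have h3 : |t| * ρ ≤ H := by nlinarith
  nlinarith [mul_nonneg (sub_nonneg.2 ht) (sub_nonneg.2 h3)]

lemma c3_coef {H ρ s t : ℝ} (hH : 0 < H) (hs : |s| ≤ ρ) (ht : |t| ≤ ρ) :
    |(s ^ 2 - t ^ 2) / (H + t ^ 2)| ≤ ρ ^ 2 / H := by
  have h0 : 0 < H + t ^ 2 := by positivity
  have hs2 : s ^ 2 ≤ ρ ^ 2 := by rw [← sq_abs]; exact pow_le_pow_left₀ (abs_nonneg _) hs 2
  have ht2 : t ^ 2 ≤ ρ ^ 2 := by rw [← sq_abs]; exact pow_le_pow_left₀ (abs_nonneg _) ht 2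
  rw [abs_div, abs_of_pos h0, div_le_div_iff₀ h0 hH]
  have h2 : |s ^ 2 - t ^ 2| ≤ ρ ^ 2 := by
    rw [abs_le]
    constructor <;> nlinarith [sq_nonneg s, sq_nonneg t]
  have h3 : 0 ≤ ρ ^ 2 * t ^ 2 := by positivity
  nlinarith

lemma c4_coef {H ρ s t κ : ℝ} (hH : 0 < H) (hs : |s| ≤ ρ) (ht : |t| ≤ ρ)
    (hκ1 : 9 / 8 * (ρ ^ 2 / H) ≤ κ) (hκ2 : 9 / 4 * (ρ ^ 2 / (H + ρ ^ 2)) ≤ κ) :
    |(s - t) * (s + 2 * t) / (H + t ^ 2)| ≤ κ := by
  have h0 : 0 < H + t ^ 2 := by positivity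
  have h1 : 0 < H + ρ ^ 2 := by positivity
  have hs2 : s ^ 2 ≤ ρ ^ 2 := by rw [← sq_abs]; exact pow_le_pow_left₀ (abs_nonneg _) hs 2
  have ht2 : t ^ 2 ≤ ρ ^ 2 := by rw [← sq_abs]; exact pow_le_pow_left₀ (abs_nonneg _) ht 2
  have hκ0 : 0 ≤ κ := le_trans (by positivity) hκ1
  have k1 : 9 / 8 * ρ ^ 2 ≤ κ * H := by
    have : 9 / 8 * (ρ ^ 2 / H) * H = 9 / 8 * ρ ^ 2 := by field_simp
    rw [← this]
    exact mul_le_mul_of_nonneg_right hκ1 hH.le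
  have k2 : 9 / 4 * t ^ 2 ≤ κ * (H + t ^ 2) := by
    have k3 : t ^ 2 / (H + t ^ 2) ≤ ρ ^ 2 / (H + ρ ^ 2) := by
      rw [div_le_div_iff₀ h0 h1]
      nlinarith
    have k4 : t ^ 2 / (H + t ^ 2) * (H + t ^ 2) = t ^ 2 := by field_simp
    have k5 : 9 / 4 * (t ^ 2 / (H + t ^ 2)) ≤ κ := by linarith
    have := mul_le_mul_of_nonneg_right k5 h0.le
    nlinarith
  rw [abs_div, abs_of_pos h0, div_le_iff₀ h0, abs_le]
  constructor
  · nlinarith [sq_nonneg (s + t / 2)]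
  · have h5 : s * t ≤ ρ * |t| := by
      have : s * t ≤ |s| * |t| := by rw [← abs_mul]; exact le_abs_self _
      exact this.trans (mul_le_mul_of_nonneg_right hs (abs_nonneg _))
    have h6 : 0 ≤ κ * t ^ 2 := by positivity
    nlinarith [sq_nonneg (ρ - 4 * |t|), sq_abs t]

/-- **The pointwise inequality.** -/
theorem hp_point {m : ℝ} (hm : 0 < m) (j : ι → ℝ) {ρ κ : ℝ} (hρ : 0 ≤ ρ) (hj : ∀ a, |j a| ≤ ρ)
    (hρH : ρ ^ 2 ≤ (m + 2) / 2) (hκ1 : 9 / 8 * (ρ ^ 2 / ((m + 2) / 2)) ≤ κ)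
    (hκ2 : 9 / 4 * (ρ ^ 2 / ((m + 2) / 2 + ρ ^ 2)) ≤ κ) (v : ι → ℝ) (hv : ∑ a, v a ^ 2 = 1) :
    ∃ v' : ι → ℝ, ∑ a, v' a ^ 2 ≤ 1 ∧ ∀ u n : ι → ℝ, ∑ a, n a ^ 2 = 1 →
      ∑ a, v a * G8 m j u n a
        ≤ ((∑ a, j a ^ 2 * u a ^ 2) - 1) * (∑ a, v a * (n a - j a * u a))
          + (1 / 2 + 1 / 2 * (ρ ^ 2 / ((m + 2) / 2)) + κ)
            * (√(∑ a, j a ^ 2 * u a ^ 2) * ∑ a, (n a - j a * u a) ^ 2)
          + ρ * (|∑ a, v' a * u a| * ∑ a, (n a - j a * u a) ^ 2) := by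
  set H := (m + 2) / 2 with hH
  have hH0 : 0 < H := by positivity
  have h1 : 0 < H + ρ ^ 2 := by positivity
  have hj2 : ∀ a, j a ^ 2 ≤ ρ ^ 2 := fun a => by
    rw [← sq_abs]; exact pow_le_pow_left₀ (abs_nonneg _) (hj a) 2
  have hκ0 : 0 ≤ κ := le_trans (by positivity) hκ1
  refine ⟨fun a => (H + j a ^ 2) / (H + ρ ^ 2) * v a, ?_, ?_⟩
  · rw [← hv]
    refine Finset.sum_le_sum fun a _ => ?_
    rw [mul_pow]
    have h2 : (H + j a ^ 2) / (H + ρ ^ 2) ≤ 1 := by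
      rw [div_le_one h1]; linarith [hj2 a]
    have h3 : 0 ≤ (H + j a ^ 2) / (H + ρ ^ 2) := by positivity
    have h4 : ((H + j a ^ 2) / (H + ρ ^ 2)) ^ 2 ≤ 1 := pow_le_one₀ h3 h2
    nlinarith [sq_nonneg (v a)]
  intro u n hn
  set z : ι → ℝ := fun a => n a - j a * u a with hz
  set y : ι → ℝ := fun a => j a * u a with hy
  have hyz : ∀ a, n a = y a + z a := fun a => by simp only [hz, hy]; ring
  set S := ∑ a, z a ^ 2 with hS
  have hR' : ∑ a, j a ^ 2 * u a ^ 2 = ∑ a, y a ^ 2 :=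
    Finset.sum_congr rfl fun a _ => by simp only [hy]; ring
  rw [hR']
  set R := ∑ a, y a ^ 2 with hR
  have hS0 : 0 ≤ S := Finset.sum_nonneg fun a _ => sq_nonneg _
  have hR0 : 0 ≤ R := Finset.sum_nonneg fun a _ => sq_nonneg _
  have hn' : ∑ a, (y a + z a) ^ 2 = 1 := by rw [← hn]; exact Finset.sum_congr rfl fun a _ => by rw [hyz]
  have hmain := main_part v z y hv hn'
  set P := ∑ a, z a * y a with hP
  have hP2 : 2 * P = 1 - R - S := by
    have : R + 2 * P + S = 1 := by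
      rw [← hn', hS, hR, hP, Finset.mul_sum, ← Finset.sum_add_distrib, ← Finset.sum_add_distrib]
      exact Finset.sum_congr rfl fun a _ => by ring
    linarith
  -- the pieces
  set A2 := ∑ b, j b / (H + j b ^ 2) * z b ^ 2 with hA2
  have hA2b : |A2| ≤ ρ / (H + ρ ^ 2) * S :=
    wsum_le fun b => lin_coef hH0 hρ hρH (hj b)
  set D3 : ι → ℝ := fun a => ∑ b, (j a ^ 2 - j b ^ 2) / (H + j b ^ 2) * z b ^ 2 with hD3
  have hD3b : ∀ a, |D3 a| ≤ ρ ^ 2 / H * S := fun a =>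
    wsum_le fun b => c3_coef hH0 (hj a) (hj b)
  set D4 : ι → ℝ := fun a => ∑ b, (j a - j b) * (j a + 2 * j b) / (H + j b ^ 2)
    * (z b * y b) with hD4
  have hD4b : ∀ a, |D4 a| ≤ κ * (√S * √R) := fun a =>
    wprod_le hκ0 fun b => c4_coef hH0 (hj a) (hj b) hκ1 hκ2
  have hsp : ∀ a, G8 m j u n a = -(z a) * S + (H + j a ^ 2) * u a * A2 + 1 / 2 * y a * S
      + 1 / 2 * y a * D3 a - 3 * z a * P - z a * D4 a := fun a => G8_split m hm j u n a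
  have hsum : ∑ a, v a * G8 m j u n a
      = -(∑ a, v a * z a) * S + (∑ a, v a * ((H + j a ^ 2) * u a)) * A2
        + 1 / 2 * (∑ a, v a * y a) * S + 1 / 2 * (∑ a, v a * y a * D3 a)
        - 3 * (∑ a, v a * z a) * P - ∑ a, v a * z a * D4 a := by
    simp only [hsp, Finset.mul_sum, Finset.sum_mul, ← Finset.sum_neg_distrib,
      ← Finset.sum_add_distrib, ← Finset.sum_sub_distrib]
    exact Finset.sum_congr rfl fun a _ => by ring
  have hvn : ∑ a, v a * (y a + z a) = (∑ a, v a * y a) + ∑ a, v a * z a := by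
    rw [← Finset.sum_add_distrib]
    exact Finset.sum_congr rfl fun a _ => by ring
  rw [hvn] at hmain
  -- linear term
  have hX : ∑ a, v a * ((H + j a ^ 2) * u a)
      = (H + ρ ^ 2) * ∑ a, (H + j a ^ 2) / (H + ρ ^ 2) * v a * u a := by
    rw [Finset.mul_sum]
    exact Finset.sum_congr rfl fun a _ => by field_simp
  have t2 : (∑ a, v a * ((H + j a ^ 2) * u a)) * A2
      ≤ ρ * (|∑ a, (H + j a ^ 2) / (H + ρ ^ 2) * v a * u a| * S) := by
    refine (le_abs_self _).trans ?_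
    rw [hX, abs_mul, abs_mul, abs_of_pos h1]
    have := mul_le_mul_of_nonneg_left hA2b
      (mul_nonneg h1.le (abs_nonneg (∑ a, (H + j a ^ 2) / (H + ρ ^ 2) * v a * u a)))
    refine this.trans (le_of_eq ?_)
    field_simp
  -- corr3
  have t3 : ∑ a, v a * y a * D3 a ≤ ρ ^ 2 / H * (√R * S) := by
    have k1 : ∑ a, v a * y a * D3 a ≤ ∑ a, |v a * y a| * (ρ ^ 2 / H * S) := by
      refine Finset.sum_le_sum fun a _ => ?_
      refine (le_abs_self _).trans ?_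
      rw [abs_mul]
      exact mul_le_mul_of_nonneg_left (hD3b a) (abs_nonneg _)
    rw [← Finset.sum_mul] at k1
    have k2 := cs_abs v y
    rw [hv, Real.sqrt_one, one_mul] at k2
    have k3 : 0 ≤ ρ ^ 2 / H * S := by positivity
    have k4 := mul_le_mul_of_nonneg_right k2 k3
    refine k1.trans (k4.trans (le_of_eq ?_))
    ring
  -- T4
  have t4 : -∑ a, v a * z a * D4 a ≤ κ * (√R * S) := by
    have k1 : -∑ a, v a * z a * D4 a ≤ ∑ a, |v a * z a| * (κ * (√S * √R)) := by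
      rw [← Finset.sum_neg_distrib]
      refine Finset.sum_le_sum fun a _ => ?_
      refine (neg_le_abs _).trans ?_
      rw [abs_mul]
      exact mul_le_mul_of_nonneg_left (hD4b a) (abs_nonneg _)
    rw [← Finset.sum_mul] at k1
    have k2 := cs_abs v z
    rw [hv, Real.sqrt_one, one_mul] at k2
    have k3 : 0 ≤ κ * (√S * √R) := by positivity
    have k4 := mul_le_mul_of_nonneg_right k2 k3
    refine k1.trans (k4.trans (le_of_eq ?_))
    have := Real.mul_self_sqrt hS0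
    linear_combination (κ * √R) * this
  rw [hsum]
  have k5 : -(∑ a, v a * z a) * S - 3 * (∑ a, v a * z a) * P
      = 1 / 2 * (∑ a, v a * z a) * S + 3 / 2 * (R - 1) * (∑ a, v a * z a) := by
    linear_combination (-3 / 2 * (∑ a, v a * z a)) * hP2
  linarith

end

section

variable {ι Ω : Type*} [Fintype ι] [DecidableEq ι] [MeasurableSpace Ω] {μ : Measure Ω}
  {m : ℝ} {x N : ι → Ω → ℝ} {j : ι → ℝ}

/-- the constant in front of the radius term -/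
noncomputable def alp (m ρ : ℝ) : ℝ :=
  1 / 2 + 1 / 2 * (ρ ^ 2 / ((m + 2) / 2))
    + max (9 / 8 * (ρ ^ 2 / ((m + 2) / 2))) (9 / 4 * (ρ ^ 2 / ((m + 2) / 2 + ρ ^ 2)))

lemma alp_nonneg (hm : 0 < m) (ρ : ℝ) : 0 ≤ alp m ρ := by
  unfold alp
  have : 0 ≤ 9 / 8 * (ρ ^ 2 / ((m + 2) / 2)) := by positivity
  have h2 := this.trans (le_max_left _ (9 / 4 * (ρ ^ 2 / ((m + 2) / 2 + ρ ^ 2))))
  have h3 : 0 ≤ 1 / 2 * (ρ ^ 2 / ((m + 2) / 2)) := by positivity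
  linarith

variable (h : T0Data μ m x N)
include h

/-- **The pointwise inequality `hP`** of `H590.el_core`. -/
theorem hP (hm : 0 < m) (j : ι → ℝ) {ρ : ℝ} (hρ : 0 ≤ ρ) (hj : ∀ a, |j a| ≤ ρ)
    (hρH : ρ ^ 2 ≤ (m + 2) / 2) (v : ι → ℝ) (hv : ∑ a, v a ^ 2 = 1) :
    ∃ v' : ι → ℝ, ∑ a, v' a ^ 2 ≤ 1 ∧ ∀ ω,
      ∑ a, v a * G8 m j (fun b => x b ω) (fun b => N b ω) a
        ≤ qj j x ω * (∑ a, v a * zd j x N a ω) + alp m ρ * (rr j x ω * sz j x N ω)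
          + ρ * (|∑ a, v' a * x a ω| * sz j x N ω) := by
  obtain ⟨v', hv', hp⟩ := hp_point hm j hρ hj hρH (le_max_left (9 / 8 * (ρ ^ 2 / ((m + 2) / 2)))
    (9 / 4 * (ρ ^ 2 / ((m + 2) / 2 + ρ ^ 2)))) (le_max_right _ _) v hv
  refine ⟨v', hv', fun ω => ?_⟩
  have h1 := hp (fun b => x b ω) (fun b => N b ω) (h.uN ω)
  have e : ∑ a, (N a ω - j a * x a ω) ^ 2 = sz j x N ω :=
    Finset.sum_congr rfl fun a _ => by rw [zd, sq]
  rw [e] at h1
  exact h1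

/-- **The mean normal law**, closed in the radius row and in the moments. -/
theorem el_kb (hm : 3 ≤ m) (hL : LSq μ (Matrix.diagonal j) x N) {L ρ rb δ t M Q : ℝ}
    (hL8 : ∀ a, L ≤ L8 m j a) (hρ : 0 ≤ ρ) (hj : ∀ a, |j a| ≤ ρ) (hρH : ρ ^ 2 ≤ (m + 2) / 2)
    (hδ : 0 ≤ δ) (hδ1 : δ < 1) (hf : fro (De μ x N) ≤ δ ^ 2)
    (hQ0 : 0 ≤ Q) (hQ : 16 / 7 * ((δ ^ 2 + 2 / (m + 1) * hh μ (Matrix.diagonal j) x N)
        / (1 - δ) ^ 2) + hh μ (Matrix.diagonal j) x N ^ 2 ≤ Q ^ 2)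
    {k : ℕ} (hk : 1 ≤ k) (ht : 0 < t) (hM0 : 0 ≤ M)
    (hM : ∀ v : ι → ℝ, ∑ a, v a ^ 2 = 1 → ∫ ω, (∑ a, v a * x a ω) ^ (2 * k) ∂μ ≤ M)
    (hR : ∫ ω, rr j x ω * sz j x N ω ∂μ ≤ rb * hh μ (diagonal j) x N) :
    L * √(uu μ N) ≤ Q * √(hh μ (diagonal j) x N)
      + (alp m ρ * rb + ρ * (t * (1 - 1 / (2 * k)))) * hh μ (diagonal j) x N
      + ρ * (t / (2 * k) / t ^ (2 * k) * M * (1 + ρ) ^ 2) :=
  H590.el_kb h hm hL hL8 (alp_nonneg (by linarith) ρ) hρ hj hδ hδ1 hf hQ0 hQ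
    (fun v hv => hP h (by linarith) j hρ hj hρH v hv) hk ht hM0 hM hR

end

end Vale.Agent.P224.R2.H586
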